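import Mathlib

/-!
Destabilisation, part 1: combinatorial dimension of faces of a product of simplices, and generic
linear functionals.

`I` is the set of all vertices, `π : I → Γ` its decomposition into blocks (one simplex for each
`g : Γ`). A set `S` of vertices has dimension `dm π S = #S - #(blocks hit by S)`.
-/

open Finset

namespace Vale.Agent.P093.U233

variable {I Γ : Type*} [DecidableEq I] [DecidableEq Γ]

/-- dimension of the face spanned by `S` in the product of the simplices on the fibres of `π` -/
def dm (π : I → Γ) (S : Finset I) : ℕ := S.card - (S.image π).card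

theorem dm_mono (π : I → Γ) {S T : Finset I} (h : S ⊆ T) : dm π S ≤ dm π T := by
  classical
  unfold dm
  -- `T \ S` adds at most `#(T \ S)` blocks
  have h1 : T.image π ⊆ S.image π ∪ (T \ S).image π := by
    rw [← image_union, union_sdiff_of_subset h]
  have h2 : (T.image π).card ≤ (S.image π).card + (T \ S).card :=
    (card_le_card h1).trans ((card_union_le _ _).trans (by gcongr; exact card_image_le))
  have h3 : T.card = S.card + (T \ S).card := by
    rw [card_sdiff_of_subset h]; have := card_le_card h; omega
  have h4 : (S.image π).card ≤ S.card := card_image_le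
  omega

omit [DecidableEq I] in
theorem dm_add_card_image (π : I → Γ) (S : Finset I) :
    dm π S + (S.image π).card = S.card := by
  unfold dm
  have : (S.image π).card ≤ S.card := card_image_le
  omega

/-- two faces `T, T'` (hitting all blocks) of a face `S` meet in a face of dimension at least
`dim T + dim T' - dim S` -/
theorem dm_inter [Fintype Γ] (π : I → Γ) {S T T' : Finset I} (hT : T ⊆ S) (hT' : T' ⊆ S)
    (h : T.image π = univ) (h' : T'.image π = univ) :
    dm π T + dm π T' ≤ dm π S + dm π (T ∩ T') := by
  have hS : S.image π = univ := by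
    apply Finset.eq_univ_of_forall
    intro g
    have : g ∈ T.image π := by rw [h]; exact mem_univ g
    exact image_subset_image hT this
  have a1 := dm_add_card_image π T
  have a2 := dm_add_card_image π T'
  have a3 := dm_add_card_image π S
  have a4 := dm_add_card_image π (T ∩ T')
  rw [h] at a1
  rw [h'] at a2
  rw [hS] at a3
  have h5 : ((T ∩ T').image π).card ≤ (univ : Finset Γ).card := card_le_card (subset_univ _)
  have h6 : (T ∪ T').card + (T ∩ T').card = T.card + T'.card := card_union_add_card_inter T T'
  have h7 : (T ∪ T').card ≤ S.card := card_le_card (union_subset hT hT')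
  omega

/-- **generic functionals**: there are vectors `L i ∈ ℝᵗ` such that, for every `S` of dimension
at least `t`, the differences `L i - L j`, `i, j ∈ S` in the same block, span `ℝᵗ` -/
theorem exists_generic [Fintype I] (π : I → Γ) (t : ℕ) :
    ∃ L : I → Fin t → ℝ, ∀ S : Finset I, t ≤ dm π S → ∀ l : Fin t → ℝ,
      (∀ i ∈ S, ∀ j ∈ S, π i = π j → L i ⬝ᵥ l = L j ⬝ᵥ l) → l = 0 := by
  classical
  -- the determinant polynomials
  let M : (Fin t → I) × (Fin t → I) → Matrix (Fin t) (Fin t) (MvPolynomial (I × Fin t) ℝ) :=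
    fun p => Matrix.of fun a k => MvPolynomial.X (p.1 a, k) - MvPolynomial.X (p.2 a, k)
  let Q : Finset ((Fin t → I) × (Fin t → I)) :=
    univ.filter fun p => Function.Injective p.1 ∧ ∀ a b, p.2 a ≠ p.1 b
  have hM : ∀ p ∈ Q, (M p).det ≠ 0 := by
    intro p hp h0
    rw [mem_filter] at hp
    obtain ⟨-, hinj, hne⟩ := hp
    -- evaluate at the point `x (e a, k) = δ a k`, zero elsewhere
    let x : I × Fin t → ℝ := fun q => if ∃ a, p.1 a = q.1 ∧ a = q.2 then 1 else 0
    have h1 : MvPolynomial.eval x (M p).det = 0 := by rw [h0, map_zero]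
    rw [RingHom.map_det] at h1
    have h2 : (MvPolynomial.eval x).mapMatrix (M p) = 1 := by
      ext a k
      simp only [RingHom.mapMatrix_apply, Matrix.map_apply, M, Matrix.of_apply, map_sub,
        MvPolynomial.eval_X, x]
      rw [Matrix.one_apply]
      have h3 : ¬ ∃ b, p.1 b = p.2 a ∧ b = k := by
        rintro ⟨b, hb, -⟩
        exact hne a b hb.symm
      rw [if_neg h3, sub_zero]
      by_cases hak : a = k
      · rw [if_pos hak, if_pos ⟨a, rfl, hak⟩]
      · rw [if_neg hak, if_neg]
        rintro ⟨b, hb, hbk⟩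
        exact hak ((hinj hb) ▸ hbk)
    rw [h2, Matrix.det_one] at h1
    exact one_ne_zero h1
  have hprod : (∏ p ∈ Q, (M p).det) ≠ 0 := Finset.prod_ne_zero_iff.2 hM
  obtain ⟨x, hx⟩ : ∃ x : I × Fin t → ℝ, MvPolynomial.eval x (∏ p ∈ Q, (M p).det) ≠ 0 := by
    by_contra hcon
    push Not at hcon
    exact hprod (MvPolynomial.funext fun x => by rw [hcon x, map_zero])
  rw [map_prod, Finset.prod_ne_zero_iff] at hx
  refine ⟨fun i k => x (i, k), fun S hS l hl => ?_⟩
  -- roots of the blocks
  rcases S.eq_empty_or_nonempty with rfl | ⟨i0, -⟩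
  · have ht : t = 0 := by simpa [dm] using hS
    subst ht
    exact Subsingleton.elim _ _
  have : Nonempty I := ⟨i0⟩
  have hroot : ∀ g, ∃ i, g ∈ S.image π → i ∈ S ∧ π i = g := fun g => by
    by_cases hg : g ∈ S.image π
    · obtain ⟨i, hi, hig⟩ := mem_image.1 hg
      exact ⟨i, fun _ => ⟨hi, hig⟩⟩
    · exact ⟨i0, fun h => absurd h hg⟩
  choose r hr using hroot
  have hrS : ∀ g, g ∈ S.image π → r g ∈ S := fun g hg => (hr g hg).1
  have hrg : ∀ g, g ∈ S.image π → π (r g) = g := fun g hg => (hr g hg).2
  let R : Finset I := (S.image π).image r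
  have hRS : R ⊆ S := by
    intro i hi
    obtain ⟨g, hg, rfl⟩ := mem_image.1 hi
    exact hrS g hg
  have hRc : R.card = (S.image π).card := by
    apply card_image_of_injOn
    intro g hg g' hg' h
    rw [← hrg g hg, ← hrg g' hg', h]
  have hc : t ≤ (S \ R).card := by
    rw [card_sdiff_of_subset hRS, hRc]
    exact hS
  obtain ⟨e⟩ : Nonempty (Fin t ↪ (S \ R : Finset I)) := by
    rw [Function.Embedding.nonempty_iff_card_le, Fintype.card_fin, Fintype.card_coe]
    exact hc
  let p : (Fin t → I) × (Fin t → I) := (fun a => (e a : I), fun a => r (π (e a)))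
  have hp : p ∈ Q := by
    rw [mem_filter]
    refine ⟨mem_univ _, fun a b h => e.injective (Subtype.ext h), fun a b h => ?_⟩
    have h1 : (e b : I) ∉ R := (mem_sdiff.1 (e b).2).2
    apply h1
    have h2 : (e a : I) ∈ S := (mem_sdiff.1 (e a).2).1
    have h3 : r (π (e a)) ∈ R := mem_image_of_mem r (mem_image_of_mem π h2)
    have h4 : r (π (e a)) = (e b : I) := h
    rw [← h4]
    exact h3
  have hdet := hx p hp
  rw [RingHom.map_det] at hdet
  refine Matrix.eq_zero_of_mulVec_eq_zero hdet ?_
  ext a
  have h2 : (e a : I) ∈ S := (mem_sdiff.1 (e a).2).1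
  have h3 : π (e a) ∈ S.image π := mem_image_of_mem π h2
  have h4 := hl (e a) h2 (r (π (e a))) (hrS _ h3) (hrg _ h3).symm
  simp only [Matrix.mulVec, RingHom.mapMatrix_apply, Pi.zero_apply]
  simp only [dotProduct] at h4 ⊢
  rw [← sub_eq_zero, ← Finset.sum_sub_distrib] at h4
  rw [← h4]
  refine Finset.sum_congr rfl fun k _ => ?_
  simp [M, p]
  ring

end Vale.Agent.P093.U233
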