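import Mathlib
import Vale.Agent.P093.U233.Gen

/-!
Destabilisation, part 2: the product of simplices `Prd π`, its face preserving action of `ℝᵗ`
(one generic linear functional per vertex), the function `rho` and the retraction `ret`.
-/

open Finset

namespace Vale.Agent.P093.U233

variable {I Γ : Type*} [Fintype I] [DecidableEq I] [Fintype Γ] [DecidableEq Γ]

/-- the product of the simplices spanned by the fibres of `π` -/
def Prd (π : I → Γ) : Set (I → ℝ) :=
  {y | (∀ i, 0 ≤ y i) ∧ ∀ g, ∑ i with π i = g, y i = 1}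

/-- the support, i.e. the carrier face, of a point -/
noncomputable def spt (y : I → ℝ) : Finset I := univ.filter fun i => y i ≠ 0

omit [DecidableEq I] [Fintype Γ] in
theorem mem_spt {y : I → ℝ} {i : I} : i ∈ spt y ↔ y i ≠ 0 := by simp [spt]

omit [DecidableEq I] [Fintype Γ] in
theorem prd_le_one {π : I → Γ} {y : I → ℝ} (hy : y ∈ Prd π) (i : I) : y i ≤ 1 := by
  rw [← hy.2 (π i)]
  exact single_le_sum (f := y) (fun j _ => hy.1 j) (by simp)

omit [DecidableEq I] in
theorem prd_image_spt {π : I → Γ} {y : I → ℝ} (hy : y ∈ Prd π) :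
    (spt y).image π = univ := by
  apply Finset.eq_univ_of_forall
  intro g
  by_contra hg
  have : ∑ i with π i = g, y i = 0 := by
    apply Finset.sum_eq_zero
    intro i hi
    by_contra h0
    exact hg (mem_image.2 ⟨i, mem_spt.2 h0, (mem_filter.1 hi).2⟩)
  rw [hy.2 g] at this
  exact one_ne_zero this

/-- blockwise normalisation -/
noncomputable def nrm (π : I → Γ) (w : I → ℝ) : I → ℝ :=
  fun i => w i / ∑ j with π j = π i, w j

omit [DecidableEq I] [Fintype Γ] in
theorem nrm_mem {π : I → Γ} {w : I → ℝ} (h0 : ∀ i, 0 ≤ w i)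
    (h1 : ∀ g, 0 < ∑ i with π i = g, w i) : nrm π w ∈ Prd π := by
  refine ⟨fun i => div_nonneg (h0 i) (h1 _).le, fun g => ?_⟩
  have : ∑ i with π i = g, nrm π w i = ∑ i with π i = g, w i / ∑ j with π j = g, w j := by
    apply Finset.sum_congr rfl
    intro i hi
    rw [mem_filter] at hi
    simp only [nrm, hi.2]
  rw [this, ← Finset.sum_div, div_self (h1 g).ne']

omit [DecidableEq I] [Fintype Γ] in
theorem spt_nrm {π : I → Γ} {w : I → ℝ} (h1 : ∀ g, 0 < ∑ i with π i = g, w i) :
    spt (nrm π w) = spt w := by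
  ext i
  simp only [mem_spt, nrm, ne_eq, div_eq_zero_iff, (h1 (π i)).ne', or_false]

omit [DecidableEq I] [Fintype Γ] in
theorem continuous_nrm {Z : Type*} [TopologicalSpace Z] {π : I → Γ} {w : Z → I → ℝ}
    (hw : Continuous w) (h1 : ∀ z g, 0 < ∑ i with π i = g, w z i) :
    Continuous fun z => nrm π (w z) := by
  apply continuous_pi
  intro i
  refine Continuous.div ((continuous_apply i).comp hw) ?_ fun z => (h1 z _).ne'
  exact continuous_finsetSum _ fun j _ => (continuous_apply j).comp hw

variable {E : Type*} [NormedAddCommGroup E] [NormedSpace ℝ E]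

/-- the action of `E` on the product of simplices -/
noncomputable def act (π : I → Γ) (L : I → E →L[ℝ] ℝ) (l : E) (y : I → ℝ) : I → ℝ :=
  nrm π fun i => Real.exp (L i l) * y i

section act

variable {π : I → Γ} {L : I → E →L[ℝ] ℝ} {c : ℝ} {y : I → ℝ} {l : E}

omit [DecidableEq I] [Fintype Γ] in
theorem act_den (hc : ∀ i, ‖L i‖ ≤ c) (hy : y ∈ Prd π) (l : E) (g : Γ) :
    Real.exp (-(c * ‖l‖)) ≤ ∑ i with π i = g, Real.exp (L i l) * y i := by
  calc Real.exp (-(c * ‖l‖)) = ∑ i with π i = g, Real.exp (-(c * ‖l‖)) * y i := by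
        rw [← Finset.mul_sum, hy.2 g, mul_one]
    _ ≤ _ := by
        apply Finset.sum_le_sum
        intro i _
        apply mul_le_mul_of_nonneg_right _ (hy.1 i)
        apply Real.exp_le_exp.2
        have h1 : |L i l| ≤ c * ‖l‖ := by
          have := (L i).le_opNorm l
          rw [Real.norm_eq_abs] at this
          exact this.trans (mul_le_mul_of_nonneg_right (hc i) (norm_nonneg l))
        exact (abs_le.1 h1).1

omit [DecidableEq I] [Fintype Γ] in
theorem act_den_pos (hy : y ∈ Prd π) (l : E) (g : Γ) :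
    0 < ∑ i with π i = g, Real.exp (L i l) * y i := by
  have hc : ∀ i, ‖L i‖ ≤ ∑ j, ‖L j‖ := fun i =>
    single_le_sum (f := fun j => ‖L j‖) (fun j _ => norm_nonneg _) (mem_univ i)
  exact (Real.exp_pos _).trans_le (act_den hc hy l g)

omit [DecidableEq I] [Fintype Γ] in
theorem act_mem (hy : y ∈ Prd π) : act π L l y ∈ Prd π :=
  nrm_mem (fun i => mul_nonneg (Real.exp_pos _).le (hy.1 i)) (act_den_pos hy l)

omit [DecidableEq I] [Fintype Γ] in
theorem spt_act (hy : y ∈ Prd π) : spt (act π L l y) = spt y := by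
  rw [act, spt_nrm (act_den_pos hy l)]
  ext i
  simp [mem_spt, (Real.exp_pos _).ne']

omit [DecidableEq I] [Fintype Γ] in
theorem act_zero (hy : y ∈ Prd π) : act π L 0 y = y := by
  ext i
  simp only [act, nrm, map_zero, Real.exp_zero, one_mul, hy.2, div_one]

omit [DecidableEq I] [Fintype Γ] in
theorem act_le (hc : ∀ i, ‖L i‖ ≤ c) (hy : y ∈ Prd π) (i : I) :
    act π L l y i ≤ Real.exp (2 * (c * ‖l‖)) * y i := by
  have h1 : |L i l| ≤ c * ‖l‖ := by
    have := (L i).le_opNorm l
    rw [Real.norm_eq_abs] at this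
    exact this.trans (mul_le_mul_of_nonneg_right (hc i) (norm_nonneg l))
  have h2 := act_den hc hy l (π i)
  unfold act nrm
  rw [div_le_iff₀ (act_den_pos hy l (π i))]
  calc Real.exp (L i l) * y i ≤ Real.exp (c * ‖l‖) * y i :=
        mul_le_mul_of_nonneg_right (Real.exp_le_exp.2 (abs_le.1 h1).2) (hy.1 i)
    _ = Real.exp (2 * (c * ‖l‖)) * y i * Real.exp (-(c * ‖l‖)) := by
        rw [mul_right_comm, ← Real.exp_add]
        ring_nf
    _ ≤ _ := mul_le_mul_of_nonneg_left h2 (mul_nonneg (Real.exp_pos _).le (hy.1 i))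

omit [DecidableEq I] [Fintype Γ] in
theorem act_diff (hy : y ∈ Prd π) {i j : I} (hij : π i = π j) {δ : ℝ} (hδ : 0 < δ)
    (hi : δ ≤ act π L l y i) (hj : δ ≤ act π L l y j) :
    |L i l - L j l + (Real.log (y i) - Real.log (y j))| ≤ -Real.log δ := by
  have key : ∀ k : I, δ ≤ act π L l y k → Real.log (act π L l y k) =
      L k l + Real.log (y k) - Real.log (∑ m with π m = π k, Real.exp (L m l) * y m) := by
    intro k hk
    have h0 : y k ≠ 0 := by
      have : k ∈ spt (act π L l y) := mem_spt.2 (hδ.trans_le hk).ne'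
      rw [spt_act hy] at this
      exact mem_spt.1 this
    simp only [act, nrm]
    rw [Real.log_div (mul_ne_zero (Real.exp_pos _).ne' h0) (act_den_pos hy l (π k)).ne',
      Real.log_mul (Real.exp_pos _).ne' h0, Real.log_exp]
  have e : L i l - L j l + (Real.log (y i) - Real.log (y j)) =
      Real.log (act π L l y i) - Real.log (act π L l y j) := by
    rw [key i hi, key j hj, hij]
    ring
  have b : ∀ k : I, δ ≤ act π L l y k → Real.log δ ≤ Real.log (act π L l y k) ∧
      Real.log (act π L l y k) ≤ 0 := fun k hk =>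
    ⟨Real.log_le_log hδ hk, Real.log_nonpos (hδ.le.trans hk) (prd_le_one (act_mem hy) k)⟩
  rw [e, abs_le]
  have b1 := b i hi
  have b2 := b j hj
  constructor <;> linarith

omit [DecidableEq I] [Fintype Γ] in
theorem continuous_act {Z : Type*} [TopologicalSpace Z] {l : Z → E} {y : Z → I → ℝ}
    (hl : Continuous l) (hy : Continuous y) (hP : ∀ z, y z ∈ Prd π) :
    Continuous fun z => act π L (l z) (y z) := by
  apply continuous_nrm
  · apply continuous_pi
    intro i
    exact (Real.continuous_exp.comp ((L i).continuous.comp hl)).mul ((continuous_apply i).comp hy)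
  · exact fun z g => act_den_pos (hP z) (l z) g

end act

/-- the `(d+1)`-dimensional faces -/
def faces (π : I → Γ) (d : ℕ) : Finset (Finset I) :=
  univ.filter fun T => T.image π = univ ∧ dm π T = d + 1

/-- a function vanishing exactly on the `d`-skeleton -/
def rho (π : I → Γ) (d : ℕ) (y : I → ℝ) : ℝ := ∑ T ∈ faces π d, ∏ i ∈ T, y i

section rho

variable {π : I → Γ} {d : ℕ} {y : I → ℝ}

omit [DecidableEq I] in
theorem continuous_rho : Continuous (rho π d) :=
  continuous_finsetSum _ fun _ _ => continuous_finsetProd _ fun i _ => continuous_apply i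

omit [DecidableEq I] in
theorem rho_nonneg (hy : y ∈ Prd π) : 0 ≤ rho π d y :=
  Finset.sum_nonneg fun _ _ => Finset.prod_nonneg fun i _ => hy.1 i

theorem rho_eq_zero (hd : dm π (spt y) ≤ d) : rho π d y = 0 := by
  apply Finset.sum_eq_zero
  intro T hT
  simp only [faces, mem_filter, mem_univ, true_and] at hT
  by_contra h0
  rw [Finset.prod_eq_zero_iff] at h0
  push Not at h0
  have h1 : T ⊆ spt y := fun i hi => mem_spt.2 (h0 i hi)
  have := dm_mono π h1
  omega

/-- a set of dimension `> d` hitting all the blocks contains an element of `faces π d` -/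
theorem exists_face {S : Finset I} (hS : S.image π = univ) (hd : d < dm π S) :
    ∃ T ∈ faces π d, T ⊆ S := by
  have h1 : ∀ g : Γ, ∃ i ∈ S, π i = g := fun g => by
    have : g ∈ S.image π := by rw [hS]; exact mem_univ g
    simpa using this
  choose r hrS hr using h1
  have hri : Function.Injective r := fun a b h => by rw [← hr a, ← hr b, h]
  have h2 : univ.image r ⊆ S := fun i hi => by
    obtain ⟨g, -, rfl⟩ := mem_image.1 hi
    exact hrS g
  have h3 : (univ.image r).card = Fintype.card Γ := by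
    rw [card_image_of_injective _ hri, card_univ]
  have h4 := dm_add_card_image π S
  rw [hS, card_univ] at h4
  obtain ⟨T, hT1, hT2, hT3⟩ := exists_subsuperset_card_eq (n := Fintype.card Γ + (d + 1)) h2
    (by omega) (by omega)
  have h5 : T.image π = univ := by
    apply Finset.eq_univ_of_forall
    intro g
    rw [← hr g]
    exact mem_image_of_mem π (hT1 (mem_image_of_mem r (mem_univ g)))
  refine ⟨T, ?_, hT2⟩
  simp only [faces, mem_filter, mem_univ, true_and]
  refine ⟨h5, ?_⟩
  have h6 := dm_add_card_image π T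
  rw [h5, card_univ] at h6
  omega

omit [DecidableEq I] in
theorem rho_le {E : Type*} [NormedAddCommGroup E] [NormedSpace ℝ E]
    {L : I → E →L[ℝ] ℝ} {c : ℝ} {l : E} (hc0 : 0 ≤ c) (hc : ∀ i, ‖L i‖ ≤ c) (hy : y ∈ Prd π) :
    rho π d (act π L l y) ≤ Real.exp (2 * (c * ‖l‖) * Fintype.card I) * rho π d y := by
  unfold rho
  rw [Finset.mul_sum]
  apply Finset.sum_le_sum
  intro T _
  have hp : 0 ≤ 2 * (c * ‖l‖) := by positivity
  calc ∏ i ∈ T, act π L l y i ≤ ∏ i ∈ T, (Real.exp (2 * (c * ‖l‖)) * y i) :=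
        Finset.prod_le_prod (fun i _ => (act_mem hy).1 i) fun i _ => act_le hc hy i
    _ = Real.exp (2 * (c * ‖l‖)) ^ T.card * ∏ i ∈ T, y i := by
        rw [Finset.prod_mul_distrib, Finset.prod_const]
    _ ≤ _ := by
        apply mul_le_mul_of_nonneg_right _ (Finset.prod_nonneg fun i _ => hy.1 i)
        rw [← Real.exp_nat_mul, mul_comm]
        apply Real.exp_le_exp.2
        apply mul_le_mul_of_nonneg_left _ hp
        exact_mod_cast card_le_univ T

/-- if `rho` is at least `η`, some face has all its coordinates at least `η / 2^#I` -/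
theorem exists_big {η : ℝ} (hη : 0 < η) (hy : y ∈ Prd π) (h : η ≤ rho π d y) :
    ∃ T ∈ faces π d, ∀ i ∈ T, η / Fintype.card (Finset I) ≤ y i := by
  have hN : (0 : ℝ) < Fintype.card (Finset I) := by
    exact_mod_cast Fintype.card_pos
  have hne : (faces π d).Nonempty := by
    rw [nonempty_iff_ne_empty]
    intro h0
    rw [rho, h0, sum_empty] at h
    exact absurd h (not_le.2 hη)
  have h1 : ∑ T ∈ faces π d, η / Fintype.card (Finset I) ≤ ∑ T ∈ faces π d, ∏ i ∈ T, y i := by
    refine le_trans ?_ h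
    rw [Finset.sum_const, nsmul_eq_mul, mul_div_assoc', div_le_iff₀ hN, mul_comm]
    apply mul_le_mul_of_nonneg_left _ hη.le
    exact_mod_cast card_le_univ _
  obtain ⟨T, hT, hT2⟩ := Finset.exists_le_of_sum_le hne h1
  refine ⟨T, hT, fun i hi => hT2.trans ?_⟩
  rw [← Finset.mul_prod_erase T y hi]
  apply mul_le_of_le_one_right (hy.1 i)
  exact Finset.prod_le_one (fun j _ => hy.1 j) fun j _ => prd_le_one hy j

end rho

/-- pushing away from the small coordinates -/
noncomputable def ret (π : I → Γ) (η₀ : ℝ) (y : I → ℝ) : I → ℝ :=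
  nrm π fun i => max (y i - η₀) 0

section ret

variable {π : I → Γ} {η₀ : ℝ} {y : I → ℝ}

omit [DecidableEq I] [Fintype Γ] in
theorem ret_den_pos (h0 : 0 ≤ η₀) (h1 : η₀ * Fintype.card I < 1) (hy : y ∈ Prd π) (g : Γ) :
    0 < ∑ i with π i = g, max (y i - η₀) 0 := by
  calc (0 : ℝ) < 1 - η₀ * Fintype.card I := by linarith
    _ ≤ 1 - η₀ * ((univ.filter fun i => π i = g).card : ℝ) := by
        apply sub_le_sub_left
        apply mul_le_mul_of_nonneg_left _ h0
        exact_mod_cast card_le_univ _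
    _ = ∑ i with π i = g, (y i - η₀) := by
        rw [Finset.sum_sub_distrib, hy.2 g, Finset.sum_const, nsmul_eq_mul, mul_comm]
    _ ≤ _ := Finset.sum_le_sum fun i _ => le_max_left _ _

omit [DecidableEq I] [Fintype Γ] in
theorem ret_mem (h0 : 0 ≤ η₀) (h1 : η₀ * Fintype.card I < 1) (hy : y ∈ Prd π) :
    ret π η₀ y ∈ Prd π :=
  nrm_mem (fun _ => le_max_right _ _) (ret_den_pos h0 h1 hy)

omit [DecidableEq I] [Fintype Γ] in
theorem lt_of_mem_spt_ret (h0 : 0 ≤ η₀) (h1 : η₀ * Fintype.card I < 1) (hy : y ∈ Prd π) {i : I}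
    (hi : i ∈ spt (ret π η₀ y)) : η₀ < y i := by
  rw [ret, spt_nrm (ret_den_pos h0 h1 hy), mem_spt] at hi
  by_contra hcon
  exact hi (max_eq_right (by linarith))

omit [DecidableEq I] [Fintype Γ] in
theorem spt_ret_subset (h0 : 0 ≤ η₀) (h1 : η₀ * Fintype.card I < 1) (hy : y ∈ Prd π) :
    spt (ret π η₀ y) ⊆ spt y := fun _ hi =>
  mem_spt.2 (h0.trans_lt (lt_of_mem_spt_ret h0 h1 hy hi)).ne'

omit [DecidableEq I] [Fintype Γ] in
theorem continuous_ret {Z : Type*} [TopologicalSpace Z] {y : Z → I → ℝ}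
    (h0 : 0 ≤ η₀) (h1 : η₀ * Fintype.card I < 1) (hy : Continuous y) (hP : ∀ z, y z ∈ Prd π) :
    Continuous fun z => ret π η₀ (y z) := by
  apply continuous_nrm
  · apply continuous_pi
    intro i
    exact (((continuous_apply i).comp hy).sub continuous_const).max continuous_const
  · exact fun z g => ret_den_pos h0 h1 (hP z) g

theorem dm_spt_ret (h0 : 0 < η₀) (h1 : η₀ * Fintype.card I < 1) (hy : y ∈ Prd π) {d : ℕ}
    (h : rho π d y ≤ η₀ ^ (Fintype.card Γ + (d + 1))) : dm π (spt (ret π η₀ y)) ≤ d := by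
  by_contra hcon
  push Not at hcon
  obtain ⟨T, hT, hT2⟩ := exists_face (prd_image_spt (ret_mem h0.le h1 hy)) hcon
  have hT3 : T.card = Fintype.card Γ + (d + 1) := by
    simp only [faces, mem_filter, mem_univ, true_and] at hT
    have h6 := dm_add_card_image π T
    rw [hT.1, card_univ] at h6
    omega
  have hne : T.Nonempty := by
    rw [← card_pos]; omega
  have h2 : η₀ ^ (Fintype.card Γ + (d + 1)) < ∏ i ∈ T, y i := by
    rw [← hT3, ← Finset.prod_const]
    exact Finset.prod_lt_prod_of_nonempty (fun _ _ => h0)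
      (fun i hi => lt_of_mem_spt_ret h0.le h1 hy (hT2 hi)) hne
  have h3 : ∏ i ∈ T, y i ≤ rho π d y :=
    single_le_sum (f := fun T => ∏ i ∈ T, y i)
      (fun T _ => Finset.prod_nonneg fun i _ => hy.1 i) hT
  linarith

end ret

end Vale.Agent.P093.U233
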