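import Mathlib
import Vale.Agent.P093.U233.Act

/-!
Destabilisation, part 3: generic functionals on a normed space, properness of the action, and the
function `Λ` which takes the position of a point along its orbit.
-/

open Finset Topology

namespace Vale.Agent.P093.U233

variable {I Γ : Type*} [Fintype I] [DecidableEq I] [Fintype Γ] [DecidableEq Γ]
variable {E : Type*} [NormedAddCommGroup E] [NormedSpace ℝ E] [FiniteDimensional ℝ E]

omit [Fintype Γ] in
/-- generic functionals on an arbitrary finite dimensional space, in quantitative form -/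
theorem exists_functionals (π : I → Γ) :
    ∃ (L : I → E →L[ℝ] ℝ) (K : ℝ), 0 ≤ K ∧ ∀ S : Finset I, Module.finrank ℝ E ≤ dm π S →
      ∀ (l : E) (b : ℝ), 0 ≤ b → (∀ i ∈ S, ∀ j ∈ S, π i = π j → |L i l - L j l| ≤ b) →
        ‖l‖ ≤ K * b := by
  classical
  obtain ⟨M, hM⟩ := exists_generic π (Module.finrank ℝ E)
  let e : E ≃ₗ[ℝ] (Fin (Module.finrank ℝ E) → ℝ) :=
    (Module.finBasis ℝ E).equivFun
  let L0 : I → E →ₗ[ℝ] ℝ := fun i =>
    { toFun := fun l => M i ⬝ᵥ e l
      map_add' := fun a b => by simp [dotProduct_add]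
      map_smul' := fun a b => by simp [dotProduct_smul] }
  let L : I → E →L[ℝ] ℝ := fun i => LinearMap.toContinuousLinearMap (L0 i)
  have hL : ∀ i l, L i l = M i ⬝ᵥ e l := fun i l => rfl
  have key : ∀ S : Finset I, ∃ K : ℝ, 0 ≤ K ∧ (Module.finrank ℝ E ≤ dm π S →
      ∀ (l : E) (b : ℝ), 0 ≤ b → (∀ i ∈ S, ∀ j ∈ S, π i = π j → |L i l - L j l| ≤ b) →
        ‖l‖ ≤ K * b) := by
    intro S
    by_cases hS : Module.finrank ℝ E ≤ dm π S
    · let Φ : E →ₗ[ℝ] (I × I → ℝ) := LinearMap.pi fun p =>
        if p.1 ∈ S ∧ p.2 ∈ S ∧ π p.1 = π p.2 then L0 p.1 - L0 p.2 else 0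
      have hΦ : ∀ l p, Φ l p = if p.1 ∈ S ∧ p.2 ∈ S ∧ π p.1 = π p.2 then L p.1 l - L p.2 l
          else 0 := by
        intro l p
        simp only [Φ, LinearMap.pi_apply]
        split_ifs <;> rfl
      have hker : LinearMap.ker Φ = ⊥ := by
        rw [LinearMap.ker_eq_bot']
        intro l hl
        have h1 : e l = 0 := by
          apply hM S hS
          intro i hi j hj hij
          have := congrFun hl (i, j)
          rw [hΦ, if_pos ⟨hi, hj, hij⟩] at this
          rw [← hL, ← hL]
          exact sub_eq_zero.1 this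
        simpa using h1
      obtain ⟨K, hK0, hK⟩ := LinearMap.exists_antilipschitzWith Φ hker
      refine ⟨K, K.2, fun _ l b hb h => ?_⟩
      have h2 : ‖l‖ ≤ K * ‖Φ l‖ := by
        have := hK.le_mul_dist l 0
        simpa using this
      refine h2.trans (mul_le_mul_of_nonneg_left ?_ K.2)
      rw [pi_norm_le_iff_of_nonneg hb]
      rintro ⟨i, j⟩
      rw [hΦ, Real.norm_eq_abs]
      split_ifs with hp
      · exact h i hp.1 j hp.2.1 hp.2.2
      · simpa using hb
    · exact ⟨0, le_rfl, fun h => absurd h hS⟩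
  choose K hK0 hK using key
  refine ⟨L, ∑ S, K S, Finset.sum_nonneg fun S _ => hK0 S, fun S hS l b hb h => ?_⟩
  refine (hK S hS l b hb h).trans (mul_le_mul_of_nonneg_right ?_ hb)
  exact single_le_sum (f := K) (fun S _ => hK0 S) (mem_univ S)

omit [FiniteDimensional ℝ E] in
/-- **properness**: inside the metastable range, the part `rho ≥ η` of an orbit is bounded -/
theorem proper {π : I → Γ} {L : I → E →L[ℝ] ℝ} {K : ℝ}
    (hL : ∀ S : Finset I, Module.finrank ℝ E ≤ dm π S →
      ∀ (l : E) (b : ℝ), 0 ≤ b → (∀ i ∈ S, ∀ j ∈ S, π i = π j → |L i l - L j l| ≤ b) →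
        ‖l‖ ≤ K * b) {D d : ℕ} (hD : Module.finrank ℝ E + D ≤ 2 * (d + 1))
    {y : I → ℝ} (hy : y ∈ Prd π) (hyD : dm π (spt y) ≤ D) {a b : ℝ} (ha : 0 < a) (hb : 0 < b)
    {l m : E} (h1 : a ≤ rho π d (act π L l y)) (h2 : b ≤ rho π d (act π L m y)) :
    ‖l - m‖ ≤ K * (-Real.log (a / Fintype.card (Finset I)) +
      -Real.log (b / Fintype.card (Finset I))) := by
  have hN : (0 : ℝ) < Fintype.card (Finset I) := by exact_mod_cast Fintype.card_pos
  obtain ⟨T, hT, hTb⟩ := exists_big ha (act_mem hy) h1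
  obtain ⟨T', hT', hTb'⟩ := exists_big hb (act_mem hy) h2
  simp only [faces, mem_filter, mem_univ, true_and] at hT hT'
  have hTs : T ⊆ spt y := fun i hi => by
    rw [← spt_act (L := L) (l := l) hy, mem_spt]
    exact ((div_pos ha hN).trans_le (hTb i hi)).ne'
  have hTs' : T' ⊆ spt y := fun i hi => by
    rw [← spt_act (L := L) (l := m) hy, mem_spt]
    exact ((div_pos hb hN).trans_le (hTb' i hi)).ne'
  have h3 := dm_inter π hTs hTs' hT.1 hT'.1
  have hle : ∀ {c : ℝ} {n : E}, 0 < c → c ≤ rho π d (act π L n y) →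
      0 ≤ -Real.log (c / Fintype.card (Finset I)) := by
    intro c n hc h
    obtain ⟨S, hS, hSb⟩ := exists_big hc (act_mem hy) h
    simp only [faces, mem_filter, mem_univ, true_and] at hS
    have hne : S.Nonempty := by
      rw [← card_pos]
      have := dm_add_card_image π S
      omega
    obtain ⟨i, hi⟩ := hne
    have : c / Fintype.card (Finset I) ≤ 1 := (hSb i hi).trans (prd_le_one (act_mem hy) i)
    have := Real.log_nonpos (div_pos hc hN).le this
    linarith
  refine hL (T ∩ T') (by omega) _ _ (add_nonneg (hle ha h1) (hle hb h2)) ?_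
  intro i hi j hj hij
  rw [mem_inter] at hi hj
  have e1 := act_diff hy hij (div_pos ha hN) (hTb i hi.1) (hTb j hj.1)
  have e2 := act_diff hy hij (div_pos hb hN) (hTb' i hi.2) (hTb' j hj.2)
  rw [map_sub, map_sub]
  rw [abs_le] at e1 e2 ⊢
  constructor <;> linarith [e1.1, e1.2, e2.1, e2.2]

attribute [local irreducible] act rho

/-- the position of a point along its orbit: a function `Λ`, continuous where the dimension is at
most `D` and `rho` is positive, such that `rho (act λ y) ≥ η` forces `‖λ + Λ y‖ ≤ r` -/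
theorem exists_lam {π : I → Γ} {L : I → E →L[ℝ] ℝ} {K : ℝ}
    (hL : ∀ S : Finset I, Module.finrank ℝ E ≤ dm π S →
      ∀ (l : E) (b : ℝ), 0 ≤ b → (∀ i ∈ S, ∀ j ∈ S, π i = π j → |L i l - L j l| ≤ b) →
        ‖l‖ ≤ K * b) {D d : ℕ} (hD : Module.finrank ℝ E + D ≤ 2 * (d + 1)) {η : ℝ} (hη : 0 < η) :
    ∃ (r : ℝ) (Λ : (I → ℝ) → E), 0 < r ∧
      ContinuousOn Λ {y | y ∈ Prd π ∧ dm π (spt y) ≤ D ∧ 0 < rho π d y} ∧
      ∀ y, y ∈ Prd π → dm π (spt y) ≤ D → 0 < rho π d y → ∀ l,
        η ≤ rho π d (act π L l y) → ‖l + Λ y‖ ≤ r := by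
  classical
  let U : Set (I → ℝ) := {y | y ∈ Prd π ∧ dm π (spt y) ≤ D ∧ 0 < rho π d y}
  obtain ⟨r, hr1, hr2⟩ : ∃ r : ℝ, 1 ≤ r ∧ K * (-Real.log (η / Fintype.card (Finset I)) +
      -Real.log (η / 2 / Fintype.card (Finset I))) ≤ r :=
    ⟨_, le_max_left 1 _, le_max_right 1 _⟩
  let t : U → Set E := fun y => {c | ∀ l, η ≤ rho π d (act π L l y) → ‖l + c‖ ≤ r}
  have ht : ∀ y, Convex ℝ (t y) := by
    intro y
    have : t y = ⋂ l ∈ {l | η ≤ rho π d (act π L l y)}, Metric.closedBall (-l) r := by
      ext c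
      simp only [t, Set.mem_ofPred_eq, Set.mem_iInter, mem_closedBall_iff_norm, sub_neg_eq_add,
        add_comm c]
    rw [this]
    exact convex_iInter₂ fun l _ => convex_closedBall _ _
  have hcont : Continuous fun p : U × E => rho π d (act π L p.2 p.1) :=
    continuous_rho.comp (continuous_act continuous_snd (continuous_subtype_val.comp continuous_fst)
      fun p => p.1.2.1)
  obtain ⟨g, hg⟩ := exists_continuous_forall_mem_convex_of_local_const ht (by
    intro y0
    by_cases hA : ∃ l0, η / 2 < rho π d (act π L l0 y0)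
    · obtain ⟨l0, hl0⟩ := hA
      refine ⟨-l0, ?_⟩
      have hc : Continuous fun y : U => rho π d (act π L l0 y) :=
        continuous_rho.comp (continuous_act continuous_const continuous_subtype_val
          fun y => y.2.1)
      filter_upwards [hc.continuousAt.eventually (lt_mem_nhds hl0)] with y hy l hl
      have hp := proper (l := l) (m := l0) hL hD y.2.1 y.2.2.1 hη (half_pos hη) hl hy.le
      rw [← sub_eq_add_neg]
      exact le_trans hp hr2
    · push Not at hA
      refine ⟨0, ?_⟩
      let a : ℝ := rho π d y0 / 2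
      have ha : 0 < a := half_pos y0.2.2.2
      let r2 : ℝ := K * (-Real.log (η / Fintype.card (Finset I)) +
        -Real.log (a / Fintype.card (Finset I)))
      have hc : Continuous fun y : U => rho π d (y : I → ℝ) :=
        continuous_rho.comp continuous_subtype_val
      have h1 : ∀ᶠ y : U in 𝓝 y0, a < rho π d (y : I → ℝ) :=
        hc.continuousAt.eventually (lt_mem_nhds (half_lt_self y0.2.2.2))
      have h2 : ∀ᶠ y : U in 𝓝 y0, ∀ l ∈ Metric.closedBall (0 : E) r2,
          rho π d (act π L l y) < η := by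
        apply (isCompact_closedBall (0 : E) r2).eventually_forall_of_forall_eventually
        intro l _
        have h3 : rho π d (act π L l y0) < η := (hA l).trans_lt (half_lt_self hη)
        exact (hcont.tendsto (y0, l)).eventually (gt_mem_nhds h3)
      filter_upwards [h1, h2] with y hy1 hy2 l hl
      exfalso
      have h5 : ‖l - 0‖ ≤ r2 := by
        refine proper hL hD y.2.1 y.2.2.1 hη ha hl ?_
        rw [act_zero y.2.1]
        exact hy1.le
      rw [sub_zero] at h5
      exact absurd (hy2 l (by simpa using h5)) (not_lt.2 hl))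
  refine ⟨r, fun y => if h : y ∈ U then g ⟨y, h⟩ else 0, lt_of_lt_of_le one_pos hr1,
    ?_, ?_⟩
  · rw [continuousOn_iff_continuous_domRestrict]
    have : (U.domRestrict fun y => if h : y ∈ U then g ⟨y, h⟩ else 0) = g := by
      ext y
      rw [Set.domRestrict_apply, dif_pos y.2]
    have h2 := g.continuous
    rw [← this] at h2
    exact h2
  · intro y hy1 hy2 hy3 l hl
    have hU : y ∈ U := ⟨hy1, hy2, hy3⟩
    simp only [dif_pos hU]
    exact hg ⟨y, hU⟩ l hl

end Vale.Agent.P093.U233
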