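import Mathlib
import Vale.Agent.P093.U233.Lam

/-!
Destabilisation, part 4: the theorem `destab`. A stable section of block 1 (with parameter space
`E`) and a map into a product of simplices (block 2) whose carriers have dimension at most `D`,
`dim E + D ≤ 2 (d + 1)`, give an honest section of the product block.
-/

open Finset Topology

namespace Vale.Agent.P093.U233

/-- radial retraction onto the closed unit ball -/
noncomputable def rtr {E : Type*} [NormedAddCommGroup E] [NormedSpace ℝ E] (v : E) : E :=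
  (max 1 ‖v‖)⁻¹ • v

section rtr

variable {E : Type*} [NormedAddCommGroup E] [NormedSpace ℝ E]

theorem continuous_rtr : Continuous (rtr : E → E) :=
  (Continuous.inv₀ (continuous_const.max continuous_norm) fun v =>
    (lt_of_lt_of_le one_pos (le_max_left 1 ‖v‖)).ne').smul continuous_id

theorem rtr_of_le {v : E} (h : ‖v‖ ≤ 1) : rtr v = v := by
  rw [rtr, max_eq_left h, inv_one, one_smul]

theorem norm_rtr_of_ge {v : E} (h : 1 ≤ ‖v‖) : ‖rtr v‖ = 1 := by
  rw [rtr, max_eq_right h, norm_smul, norm_inv, norm_norm]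
  exact inv_mul_cancel₀ (by linarith)

theorem norm_rtr_le (v : E) : ‖rtr v‖ ≤ 1 := by
  rcases le_total ‖v‖ 1 with h | h
  · rwa [rtr_of_le h]
  · exact (norm_rtr_of_ge h).le

end rtr

/-- a continuous family vanishing for large parameters, cut off by a function `χ`, stays continuous
even if the parameter is only continuous where `χ ≠ 0` -/
theorem continuous_cutoff {X E W : Type*} [TopologicalSpace X] [NormedAddCommGroup E]
    [NormedSpace ℝ E] [FiniteDimensional ℝ E] [NormedAddCommGroup W] [NormedSpace ℝ W]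
    {H : X × E → W} (hH : Continuous H) (hH0 : ∀ x l, 1 ≤ ‖l‖ → H (x, l) = 0)
    {χ : X → ℝ} (hχ : Continuous χ) {s : X → E} (hs : ∀ x, χ x ≠ 0 → ContinuousAt s x) :
    Continuous fun x => χ x • H (x, s x) := by
  rw [continuous_iff_continuousAt]
  intro x₀
  by_cases h0 : χ x₀ = 0
  · obtain ⟨C, hC⟩ := (isCompact_closedBall (0 : E) 1).exists_bound_of_continuousOn
      (f := fun l => H (x₀, l)) (hH.comp (continuous_const.prodMk continuous_id)).continuousOn
    have h1 : ∀ᶠ x in 𝓝 x₀, ∀ l ∈ Metric.closedBall (0 : E) 1, ‖H (x, l)‖ < |C| + 1 := by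
      apply (isCompact_closedBall (0 : E) 1).eventually_forall_of_forall_eventually
      intro l hl
      have h2 : ‖H (x₀, l)‖ < |C| + 1 := by
        have h3 : ‖H (x₀, l)‖ ≤ C := hC l hl
        have h4 := le_abs_self C
        linarith
      exact (hH.norm.tendsto (x₀, l)).eventually (gt_mem_nhds h2)
    have h3 : ∀ᶠ x in 𝓝 x₀, ‖χ x • H (x, s x)‖ ≤ |χ x| * (|C| + 1) := by
      filter_upwards [h1] with x hx
      rw [norm_smul, Real.norm_eq_abs]
      apply mul_le_mul_of_nonneg_left _ (abs_nonneg _)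
      rcases le_total ‖s x‖ 1 with h | h
      · exact (hx (s x) (by simpa using h)).le
      · rw [hH0 x _ h, norm_zero]
        positivity
    have h4 : Filter.Tendsto (fun x => |χ x| * (|C| + 1)) (𝓝 x₀) (𝓝 0) := by
      have h5 : Continuous fun x => |χ x| * (|C| + 1) := (hχ.abs).mul continuous_const
      have h6 := h5.tendsto x₀
      rwa [h0, abs_zero, zero_mul] at h6
    rw [ContinuousAt, h0, zero_smul]
    exact squeeze_zero_norm' h3 h4
  · exact hχ.continuousAt.smul (hH.continuousAt.comp (f := fun x => (x, s x))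
      (continuousAt_id.prodMk (hs x₀ h0)))

variable {I Γ : Type*} [Fintype I] [DecidableEq I] [Fintype Γ] [DecidableEq Γ]

/-- **Destabilisation.** Block 1: convex carriers `C x` in a normed space, a carried map `f₁`, good
sets `A x`, and a stable section `(G₁, G₂)` over the parameter space `E`: it is the identity
outside the unit ball, and `G₁ ∈ A x` wherever `‖G₂‖ < 1`. Block 2: a map `f₂` into a product of
simplices, the carriers of dimension at most `D`, where `dim E + D ≤ 2 (d + 1)`. Then there is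
a carried map `(g₁, g₂)` such that, for every `x`, either `g₁ x ∈ A x` or the carrier of `g₂ x` has
dimension at most `d`. -/
theorem destab {X F E : Type*} [TopologicalSpace X] [NormedAddCommGroup F] [NormedSpace ℝ F]
    [NormedAddCommGroup E] [NormedSpace ℝ E] [FiniteDimensional ℝ E]
    (π : I → Γ) {C A : X → Set F} (hC : ∀ x, Convex ℝ (C x))
    {f₁ : X → F} (hf₁ : Continuous f₁) (hf₁C : ∀ x, f₁ x ∈ C x)
    {G₁ : X × E → F} {G₂ : X × E → E} (hG₁ : Continuous G₁) (hG₂ : Continuous G₂)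
    (hG₁C : ∀ x l, G₁ (x, l) ∈ C x)
    (hGb : ∀ x l, 1 ≤ ‖l‖ → G₁ (x, l) = f₁ x ∧ G₂ (x, l) = l)
    (hGA : ∀ x l, G₁ (x, l) ∈ A x ∨ 1 ≤ ‖G₂ (x, l)‖)
    {f₂ : X → I → ℝ} (hf₂ : Continuous f₂) (hf₂P : ∀ x, f₂ x ∈ Prd π)
    {D d : ℕ} (hf₂D : ∀ x, dm π (spt (f₂ x)) ≤ D)
    (hD : Module.finrank ℝ E + D ≤ 2 * (d + 1)) :
    ∃ (g₁ : X → F) (g₂ : X → I → ℝ), Continuous g₁ ∧ Continuous g₂ ∧ (∀ x, g₁ x ∈ C x) ∧
      (∀ x, g₂ x ∈ Prd π) ∧ (∀ x, spt (g₂ x) ⊆ spt (f₂ x)) ∧
      ∀ x, g₁ x ∈ A x ∨ dm π (spt (g₂ x)) ≤ d := by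
  classical
  obtain ⟨L, K, -, hL⟩ := exists_functionals (E := E) π
  let c : ℝ := ∑ j, ‖L j‖
  have hc : ∀ i, ‖L i‖ ≤ c := fun i =>
    single_le_sum (f := fun j => ‖L j‖) (fun j _ => norm_nonneg _) (mem_univ i)
  have hc0 : 0 ≤ c := Finset.sum_nonneg fun j _ => norm_nonneg _
  obtain ⟨η₀, hη₀, hη₁⟩ : ∃ η₀ : ℝ, 0 < η₀ ∧ η₀ * Fintype.card I < 1 := by
    refine ⟨1 / (Fintype.card I + 1), by positivity, ?_⟩
    rw [one_div_mul_eq_div, div_lt_one (by positivity)]
    linarith
  obtain ⟨η, hη⟩ : ∃ η : ℝ, η = η₀ ^ (Fintype.card Γ + (d + 1)) := ⟨_, rfl⟩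
  have hηpos : 0 < η := hη ▸ pow_pos hη₀ _
  obtain ⟨r₁, Λ, hr₁, hΛc, hΛ⟩ := exists_lam hL hD hηpos
  obtain ⟨r, hr⟩ : ∃ r : ℝ, r = r₁ + 1 := ⟨_, rfl⟩
  have hr0 : 0 < r := by linarith
  obtain ⟨e, he⟩ : ∃ e : ℝ, e = η * Real.exp (-(2 * (c * (2 * r)) * Fintype.card I)) := ⟨_, rfl⟩
  have hepos : 0 < e := he ▸ mul_pos hηpos (Real.exp_pos _)
  -- the parameter, the cut-off, the displacement
  let s : X → E := fun x => r⁻¹ • Λ (f₂ x)
  let χ : X → ℝ := fun x => min 1 (rho π d (f₂ x) / e)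
  have hχc : Continuous χ :=
    continuous_const.min ((continuous_rho.comp hf₂).div_const e)
  have hρ0 : ∀ x, 0 ≤ rho π d (f₂ x) := fun x => rho_nonneg (hf₂P x)
  have hχ0 : ∀ x, 0 ≤ χ x := fun x => le_min zero_le_one (div_nonneg (hρ0 x) hepos.le)
  have hχ1 : ∀ x, χ x ≤ 1 := fun x => min_le_left _ _
  have hχz : ∀ x, rho π d (f₂ x) = 0 → χ x = 0 := fun x hx => by
    simp only [χ, hx, zero_div]
    exact min_eq_right zero_le_one
  have hs : ∀ x, χ x ≠ 0 → ContinuousAt s x := by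
    intro x hx
    have hpos : 0 < rho π d (f₂ x) := lt_of_le_of_ne (hρ0 x) fun h => hx (hχz x h.symm)
    have h1 : ContinuousOn (fun x => Λ (f₂ x)) {x | 0 < rho π d (f₂ x)} :=
      hΛc.comp hf₂.continuousOn fun x hx => ⟨hf₂P x, hf₂D x, hx⟩
    have h2 : IsOpen {x | 0 < rho π d (f₂ x)} :=
      isOpen_lt continuous_const (continuous_rho.comp hf₂)
    exact (h1.continuousAt (h2.mem_nhds hpos)).const_smul r⁻¹
  let H₁ : X × E → F := fun p => G₁ p - f₁ p.1
  let H₂ : X × E → E := fun p => r • (rtr (G₂ p) - rtr p.2)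
  have hH₁ : Continuous H₁ := hG₁.sub (hf₁.comp continuous_fst)
  have hH₂ : Continuous H₂ :=
    ((continuous_rtr.comp hG₂).sub (continuous_rtr.comp continuous_snd)).const_smul r
  have hH₁0 : ∀ x l, 1 ≤ ‖l‖ → H₁ (x, l) = 0 := fun x l hl => by
    simp only [H₁, (hGb x l hl).1, sub_self]
  have hH₂0 : ∀ x l, 1 ≤ ‖l‖ → H₂ (x, l) = 0 := fun x l hl => by
    simp only [H₂, (hGb x l hl).2, sub_self, smul_zero]
  have hH₂n : ∀ p, ‖H₂ p‖ ≤ 2 * r := by
    intro p
    have h1 := norm_sub_le (rtr (G₂ p)) (rtr p.2)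
    have h2 := norm_rtr_le (G₂ p)
    have h3 := norm_rtr_le p.2
    simp only [H₂]
    rw [norm_smul, Real.norm_eq_abs, abs_of_pos hr0, mul_comm]
    exact mul_le_mul_of_nonneg_right (by linarith) hr0.le
  have hw₁ := continuous_cutoff hH₁ hH₁0 hχc hs
  have hw₂ := continuous_cutoff hH₂ hH₂0 hχc hs
  refine ⟨fun x => f₁ x + χ x • H₁ (x, s x),
    fun x => ret π η₀ (act π L (χ x • H₂ (x, s x)) (f₂ x)), hf₁.add hw₁,
    continuous_ret hη₀.le hη₁ (continuous_act hw₂ hf₂ hf₂P) (fun x => act_mem (hf₂P x)), ?_,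
    fun x => ret_mem hη₀.le hη₁ (act_mem (hf₂P x)), ?_, ?_⟩
  · intro x
    have h1 : f₁ x + χ x • H₁ (x, s x) = (1 - χ x) • f₁ x + χ x • G₁ (x, s x) := by
      simp only [H₁, smul_sub, sub_smul, one_smul]
      abel
    simp only [h1]
    exact hC x (hf₁C x) (hG₁C x _) (by linarith [hχ1 x]) (hχ0 x) (by ring)
  · intro x
    refine (spt_ret_subset hη₀.le hη₁ (act_mem (hf₂P x))).trans ?_
    rw [spt_act (hf₂P x)]
  · intro x
    by_cases hd : dm π (spt (ret π η₀ (act π L (χ x • H₂ (x, s x)) (f₂ x)))) ≤ d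
    · exact Or.inr hd
    · left
      have h1 : η < rho π d (act π L (χ x • H₂ (x, s x)) (f₂ x)) := by
        by_contra hcon
        push Not at hcon
        exact hd (dm_spt_ret hη₀ hη₁ (act_mem (hf₂P x)) (hη ▸ hcon))
      have hpos : 0 < rho π d (f₂ x) := by
        refine lt_of_le_of_ne (hρ0 x) fun h => ?_
        rw [hχz x h.symm, zero_smul, act_zero (hf₂P x), ← h] at h1
        linarith
      have hχx : χ x = 1 := by
        by_contra hne
        have h2 : rho π d (f₂ x) / e < 1 := by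
          by_contra h3
          push Not at h3
          exact hne (min_eq_left h3)
        rw [div_lt_one hepos] at h2
        have h3 : ‖χ x • H₂ (x, s x)‖ ≤ 2 * r := by
          rw [norm_smul, Real.norm_eq_abs, abs_of_nonneg (hχ0 x)]
          calc χ x * ‖H₂ (x, s x)‖ ≤ 1 * (2 * r) :=
                mul_le_mul (hχ1 x) (hH₂n _) (norm_nonneg _) zero_le_one
            _ = 2 * r := one_mul _
        have h4 := rho_le (d := d) (l := χ x • H₂ (x, s x)) hc0 hc (hf₂P x)
        have h5 : Real.exp (2 * (c * ‖χ x • H₂ (x, s x)‖) * Fintype.card I) ≤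
            Real.exp (2 * (c * (2 * r)) * Fintype.card I) := by
          apply Real.exp_le_exp.2
          gcongr
        have h6 : Real.exp (2 * (c * ‖χ x • H₂ (x, s x)‖) * Fintype.card I) * rho π d (f₂ x) ≤
            Real.exp (2 * (c * (2 * r)) * Fintype.card I) * e :=
          mul_le_mul h5 h2.le hpos.le (Real.exp_pos _).le
        have h7 : Real.exp (2 * (c * (2 * r)) * Fintype.card I) * e = η := by
          rw [he, mul_left_comm, ← Real.exp_add, add_neg_cancel, Real.exp_zero, mul_one]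
        linarith
      simp only [hχx, one_smul] at h1 ⊢
      have h2 := hΛ (f₂ x) (hf₂P x) (hf₂D x) hpos _ h1.le
      have h3 : Λ (f₂ x) = r • s x := by
        simp only [s]
        rw [smul_inv_smul₀ hr0.ne']
      rw [h3] at h2
      have hs1 : ‖s x‖ < 1 := by
        by_contra hcon
        push Not at hcon
        rw [hH₂0 x _ hcon, zero_add, norm_smul, Real.norm_eq_abs, abs_of_pos hr0] at h2
        nlinarith
      have h4 : H₂ (x, s x) + r • s x = r • rtr (G₂ (x, s x)) := by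
        simp only [H₂]
        rw [rtr_of_le hs1.le, smul_sub, sub_add_cancel]
      rw [h4, norm_smul, Real.norm_eq_abs, abs_of_pos hr0] at h2
      have h5 : ¬ 1 ≤ ‖G₂ (x, s x)‖ := by
        intro h6
        rw [norm_rtr_of_ge h6] at h2
        linarith
      have h6 : f₁ x + H₁ (x, s x) = G₁ (x, s x) := by simp only [H₁]; abel
      rw [h6]
      exact (hGA x (s x)).resolve_right h5

end Vale.Agent.P093.U233
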